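import Vale.Agent.P245.Defs

/-!
The entropy functional is subadditive.
-/

open MeasureTheory
open scoped ContDiff

namespace Vale.Agent.P245.H815

/-- The log-sum inequality for two terms. -/
theorem logsum {x y G H : ℝ} (hx : 0 ≤ x) (hy : 0 ≤ y) (hG : 0 < G) (hH : 0 < H) :
    (x + y) * Real.log (x + y) - (x + y) * Real.log (G + H) ≤
      (x * Real.log x - x * Real.log G) + (y * Real.log y - y * Real.log H) := by
  have key : ∀ {u K : ℝ}, 0 ≤ u → 0 < K →
      K * (u / K * Real.log (u / K)) = u * Real.log u - u * Real.log K := by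
    intro u K hu hK
    rcases hu.eq_or_lt with rfl | hu
    · simp
    · rw [Real.log_div hu.ne' hK.ne']
      field_simp
  have hGH : 0 < G + H := by positivity
  have h := Real.convexOn_mul_log.2 (Set.mem_Ici.2 (div_nonneg hx hG.le))
    (Set.mem_Ici.2 (div_nonneg hy hH.le)) (div_nonneg hG.le hGH.le) (div_nonneg hH.le hGH.le)
    (by field_simp)
  simp only [smul_eq_mul] at h
  have e1 : G / (G + H) * (x / G) + H / (G + H) * (y / H) = (x + y) / (G + H) := by
    field_simp
  rw [e1] at h
  have h2 := mul_le_mul_of_nonneg_left h hGH.le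
  rw [key (add_nonneg hx hy) hGH] at h2
  refine h2.trans (le_of_eq ?_)
  rw [← key hx hG, ← key hy hH]
  field_simp

variable {n : ℕ}

theorem integrable_mul_log {μ : Measure (EuclideanSpace ℝ (Fin n))} [IsProbabilityMeasure μ]
    {g : EuclideanSpace ℝ (Fin n) → ℝ} (hg : Continuous g) (hc : HasCompactSupport g) :
    Integrable (fun x => g x * Real.log (g x)) μ := by
  have h1 : Continuous fun x => g x * Real.log (g x) := Real.continuous_mul_log.comp hg
  have h2 : HasCompactSupport fun x => g x * Real.log (g x) := hc.mul_right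
  exact h1.integrable_of_hasCompactSupport h2

theorem entropy_eq_zero {μ : Measure (EuclideanSpace ℝ (Fin n))}
    {g : EuclideanSpace ℝ (Fin n) → ℝ} (h : g =ᵐ[μ] 0) : Entropy μ g = 0 := by
  unfold Entropy
  have h1 : ∫ x, g x * Real.log (g x) ∂μ = 0 := by
    rw [integral_congr_ae (g := fun _ => (0 : ℝ))]
    · simp
    · filter_upwards [h] with x hx
      simp [hx]
  have h2 : ∫ x, g x ∂μ = 0 := by
    rw [integral_congr_ae h]
    simp
  rw [h1, h2]
  simp

theorem entropy_congr {μ : Measure (EuclideanSpace ℝ (Fin n))}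
    {g g' : EuclideanSpace ℝ (Fin n) → ℝ} (h : g =ᵐ[μ] g') : Entropy μ g = Entropy μ g' := by
  unfold Entropy
  rw [integral_congr_ae h]
  congr 1
  refine integral_congr_ae ?_
  filter_upwards [h] with x hx
  rw [hx]

theorem entropy_add_le {μ : Measure (EuclideanSpace ℝ (Fin n))} [IsProbabilityMeasure μ]
    {g h : EuclideanSpace ℝ (Fin n) → ℝ} (hg : Continuous g) (hgc : HasCompactSupport g)
    (hh : Continuous h) (hhc : HasCompactSupport h) (hg0 : ∀ x, 0 ≤ g x) (hh0 : ∀ x, 0 ≤ h x) :
    Entropy μ (fun x => g x + h x) ≤ Entropy μ g + Entropy μ h := by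
  have ig := hg.integrable_of_hasCompactSupport (μ := μ) hgc
  have ih := hh.integrable_of_hasCompactSupport (μ := μ) hhc
  have hG0 : 0 ≤ ∫ x, g x ∂μ := integral_nonneg (f := g) hg0
  have hH0 : 0 ≤ ∫ x, h x ∂μ := integral_nonneg (f := h) hh0
  rcases hG0.eq_or_lt with hG | hG
  · have h0 : g =ᵐ[μ] 0 := (integral_eq_zero_iff_of_nonneg hg0 ig).1 hG.symm
    rw [entropy_eq_zero h0, zero_add]
    refine le_of_eq (entropy_congr ?_)
    filter_upwards [h0] with x hx
    simp [hx]
  rcases hH0.eq_or_lt with hH | hH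
  · have h0 : h =ᵐ[μ] 0 := (integral_eq_zero_iff_of_nonneg hh0 ih).1 hH.symm
    rw [entropy_eq_zero h0, add_zero]
    refine le_of_eq (entropy_congr ?_)
    filter_upwards [h0] with x hx
    simp [hx]
  have hlg := integrable_mul_log (μ := μ) hg hgc
  have hlh := integrable_mul_log (μ := μ) hh hhc
  have hls := integrable_mul_log (μ := μ) (hg.add hh) (hgc.add hhc)
  simp only [Pi.add_apply] at hls
  have hs : ∫ x, (g x + h x) ∂μ = (∫ x, g x ∂μ) + ∫ x, h x ∂μ := integral_add ig ih
  have hint := integral_mono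
    (f := fun x => (g x + h x) * Real.log (g x + h x) -
      (g x + h x) * Real.log ((∫ x, g x ∂μ) + ∫ x, h x ∂μ))
    (g := fun x => (g x * Real.log (g x) - g x * Real.log (∫ x, g x ∂μ)) +
      (h x * Real.log (h x) - h x * Real.log (∫ x, h x ∂μ)))
    (hls.sub ((ig.add ih).mul_const _))
    ((hlg.sub (ig.mul_const _)).add (hlh.sub (ih.mul_const _)))
    (fun x => logsum (hg0 x) (hh0 x) hG hH)
  have eL : ∫ x, ((g x + h x) * Real.log (g x + h x) -
      (g x + h x) * Real.log ((∫ x, g x ∂μ) + ∫ x, h x ∂μ)) ∂μ =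
      (∫ x, (g x + h x) * Real.log (g x + h x) ∂μ) -
        ((∫ x, g x ∂μ) + ∫ x, h x ∂μ) * Real.log ((∫ x, g x ∂μ) + ∫ x, h x ∂μ) := by
    rw [← hs, ← integral_mul_const]
    exact integral_sub hls ((ig.add ih).mul_const _)
  have eG : ∫ x, (g x * Real.log (g x) - g x * Real.log (∫ x, g x ∂μ)) ∂μ =
      (∫ x, g x * Real.log (g x) ∂μ) - (∫ x, g x ∂μ) * Real.log (∫ x, g x ∂μ) := by
    rw [← integral_mul_const]
    exact integral_sub hlg (ig.mul_const _)
  have eH : ∫ x, (h x * Real.log (h x) - h x * Real.log (∫ x, h x ∂μ)) ∂μ =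
      (∫ x, h x * Real.log (h x) ∂μ) - (∫ x, h x ∂μ) * Real.log (∫ x, h x ∂μ) := by
    rw [← integral_mul_const]
    exact integral_sub hlh (ih.mul_const _)
  have eR : ∫ x, ((g x * Real.log (g x) - g x * Real.log (∫ x, g x ∂μ)) +
      (h x * Real.log (h x) - h x * Real.log (∫ x, h x ∂μ))) ∂μ =
      (∫ x, (g x * Real.log (g x) - g x * Real.log (∫ x, g x ∂μ)) ∂μ) +
        ∫ x, (h x * Real.log (h x) - h x * Real.log (∫ x, h x ∂μ)) ∂μ :=
    integral_add (hlg.sub (ig.mul_const _)) (hlh.sub (ih.mul_const _))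
  rw [eL, eR, eG, eH] at hint
  unfold Entropy
  rw [hs]
  exact hint

theorem entropy_sum_le {μ : Measure (EuclideanSpace ℝ (Fin n))} [IsProbabilityMeasure μ]
    {ι : Type*} (s : Finset ι) {g : ι → EuclideanSpace ℝ (Fin n) → ℝ}
    (hg : ∀ i, Continuous (g i)) (hc : ∀ i, HasCompactSupport (g i)) (h0 : ∀ i x, 0 ≤ g i x) :
    Entropy μ (fun x => ∑ i ∈ s, g i x) ≤ ∑ i ∈ s, Entropy μ (g i) := by
  classical
  induction s using Finset.induction_on with
  | empty => simp [Entropy]
  | insert a s ha ih =>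
    rw [Finset.sum_insert ha]
    have e : (fun x => ∑ i ∈ insert a s, g i x) = fun x => g a x + ∑ i ∈ s, g i x := by
      funext x
      rw [Finset.sum_insert ha]
    rw [e]
    have hcs : HasCompactSupport fun x => ∑ i ∈ s, g i x := by
      clear ih ha e
      induction s using Finset.induction_on with
      | empty => simp [HasCompactSupport, tsupport]
      | insert b s hb ih =>
        have e : (fun x => ∑ i ∈ insert b s, g i x) = g b + fun x => ∑ i ∈ s, g i x := by
          funext x
          rw [Finset.sum_insert hb]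
          rfl
        rw [e]
        exact (hc b).add ih
    have := entropy_add_le (μ := μ) (hg a) (hc a)
      (continuous_finsetSum s fun i _ => hg i) hcs (h0 a)
      (fun x => Finset.sum_nonneg fun i _ => h0 i x)
    linarith

/-- Vector form: an inequality `Ent(f²) ≤ b(f)` for each member of a finite family of functions in
`C_c^∞` gives `Ent(∑ f_j²) ≤ ∑ b(f_j)`. -/
theorem entropy_sum_sq_le {μ : Measure (EuclideanSpace ℝ (Fin n))} [IsProbabilityMeasure μ]
    {N : ℕ} (f : Fin N → EuclideanSpace ℝ (Fin n) → ℝ) (hf : ∀ j, ContDiff ℝ ∞ (f j))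
    (hc : ∀ j, HasCompactSupport (f j)) (b : Fin N → ℝ)
    (hb : ∀ j, Entropy μ (fun x => f j x ^ 2) ≤ b j) :
    Entropy μ (fun x => ∑ j, f j x ^ 2) ≤ ∑ j, b j := by
  have h := entropy_sum_le (μ := μ) Finset.univ (g := fun j x => f j x ^ 2)
    (fun j => (hf j).continuous.pow 2)
    (fun j => by
      have h1 : HasCompactSupport (f j * f j) := (hc j).mul_right
      have h2 : (fun x => f j x ^ 2) = f j * f j := by
        funext x
        simp [sq]
      rw [h2]
      exact h1)
    (fun j x => sq_nonneg _)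
  exact h.trans (Finset.sum_le_sum fun j _ => hb j)

end Vale.Agent.P245.H815
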