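import Vale.Agent.P245.H815.Vec
import Vale.Agent.P245.H177.Semi2

/-!
Version 6 of the hand-in `DimensionFreePoincare` from version 5.
-/

open MeasureTheory
open scoped ContDiff

namespace Vale.Agent.P245.DFP

open Vale.Agent.P245

variable {n : ℕ}

/-- the logarithmic Sobolev inequality with defect `(tr M / 4) ∑ ∫ f_j²`, `M = ∑ b_i b_iᵀ`, for
finite families `f_j ∈ C_c^∞` with `D² log f_j² ≤ M`. -/
def SemiconcaveLogSobolev (μ : Measure (EuclideanSpace ℝ (Fin n))) (D : ℝ) : Prop :=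
  ∀ (N m : ℕ) (f : Fin N → EuclideanSpace ℝ (Fin n) → ℝ) (b : Fin m → EuclideanSpace ℝ (Fin n)),
    (∀ j, ContDiff ℝ ∞ (f j) ∧ HasCompactSupport (f j) ∧ ConcaveOn ℝ {x | f j x ≠ 0}
      (fun x => Real.log (f j x ^ 2) - 1 / 2 * ∑ i, inner ℝ (b i) x ^ 2)) →
    Entropy μ (fun x => ∑ j, f j x ^ 2) ≤
      D * ∑ j, ((∫ x, ‖gradient (f j) x‖ ^ 2 ∂μ) +
        (1 / 4 * ∑ i, ‖b i‖ ^ 2) * ∫ x, f j x ^ 2 ∂μ)

theorem MultipeakLogSobolev.semi {μ : Measure (EuclideanSpace ℝ (Fin n))}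
    [IsProbabilityMeasure μ] {D : ℝ} (hD : 0 ≤ D) (h : MultipeakLogSobolev μ D) :
    SemiconcaveLogSobolev μ D := by
  have hQC : ∀ g : EuclideanSpace ℝ (Fin n) → ℝ, ContDiff ℝ ∞ g → HasCompactSupport g →
      QuasiconcaveOn ℝ Set.univ (fun x => |g x|) →
      Entropy μ (fun x => g x ^ 2) ≤ D * ∫ x, ‖gradient g x‖ ^ 2 ∂μ := by
    intro g hg hc hq
    have h1 := h g hg hc 0 le_rfl (Filter.Eventually.of_forall fun t _ =>
      ⟨1, fun _ => {x | t ≤ |g x|}, fun _ => by simpa using hq t,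
        fun _ => isClosed_le continuous_const hg.continuous.abs,
        fun i j hij => absurd (Subsingleton.elim i j) hij, (Set.iUnion_const _).symm⟩)
    simpa using h1
  intro N m f b hf
  rw [Finset.mul_sum]
  exact H815.entropy_sum_sq_le f (fun j => (hf j).1) (fun j => (hf j).2.1) _ fun j =>
    H177.semi μ hD hQC m b (f j) (hf j).1 (hf j).2.1 (hf j).2.2

theorem v6
    (h : ∃ C : ℝ, 0 < C ∧ ∀ (n : ℕ) (μ : Measure (EuclideanSpace ℝ (Fin n)))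
      [IsProbabilityMeasure μ], HasLogConcaveDensity μ →
      AffinePoincare μ C ∧
      (∀ Λ : ℝ, 0 ≤ Λ → CovarianceLE μ Λ → SmoothInequalities μ (C * Λ)) ∧
      (∀ a : ℝ, 0 < a → LinearlySubgaussian μ a →
        SmoothInequalities μ (C * a ^ 2) ∧ MultipeakLogSobolev μ (C * a ^ 2) ∧
        PolynomialLogSobolev μ (C * a ^ 2) ∧ KurtosisLogSobolev μ (C * a ^ 2) ∧
        ConvexIsoperimetry μ C a ∧ ConvexConcentration μ C a)) :
    ∃ C : ℝ, 0 < C ∧ ∀ (n : ℕ) (μ : Measure (EuclideanSpace ℝ (Fin n)))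
      [IsProbabilityMeasure μ], HasLogConcaveDensity μ →
      AffinePoincare μ C ∧
      (∀ Λ : ℝ, 0 ≤ Λ → CovarianceLE μ Λ → SmoothInequalities μ (C * Λ)) ∧
      (∀ a : ℝ, 0 < a → LinearlySubgaussian μ a →
        SmoothInequalities μ (C * a ^ 2) ∧ VectorLogSobolev μ (C * a ^ 2) ∧
        SemiconcaveLogSobolev μ (C * a ^ 2) ∧
        PolynomialLogSobolev μ (C * a ^ 2) ∧ KurtosisLogSobolev μ (C * a ^ 2) ∧
        ConvexIsoperimetry μ C a ∧ ConvexConcentration μ C a) := by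
  obtain ⟨C, hC, h⟩ := h
  refine ⟨C, hC, fun n μ _ hμ => ?_⟩
  obtain ⟨h1, h2, h3⟩ := h n μ hμ
  refine ⟨h1, h2, fun a ha hs => ?_⟩
  obtain ⟨s, m, p, k, i, c⟩ := h3 a ha hs
  exact ⟨s, m.vector, m.semi (by positivity), p, k, i, c⟩

end Vale.Agent.P245.DFP
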