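import Vale.Agent.P245.H847.Stmt2
import Vale.Agent.P245.H815.Sub

/-!
Vector form of the multi-peak logarithmic Sobolev inequality.
-/

open MeasureTheory
open scoped ContDiff

namespace Vale.Agent.P245.DFP

open Vale.Agent.P245

variable {n : ℕ}

/-- the logarithmic Sobolev inequality for the Euclidean norm of a vector field `(f_j)`,
`Ent(∑ f_j²) ≤ D ∑ (1 + log (1 + T_j² / ∫ f_j²)) ∫ |∇f_j|²`, for all finite families `f_j ∈ C_c^∞`
such that almost all superlevel sets `{|f_j| ≥ t}`, `t > T_j`, are finite unions of pairwise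
disjoint closed convex sets (no condition on the mutual position of the `f_j`). -/
def VectorLogSobolev (μ : Measure (EuclideanSpace ℝ (Fin n))) (D : ℝ) : Prop :=
  ∀ (N : ℕ) (f : Fin N → EuclideanSpace ℝ (Fin n) → ℝ) (T : Fin N → ℝ),
    (∀ j, ContDiff ℝ ∞ (f j) ∧ HasCompactSupport (f j) ∧ 0 ≤ T j ∧
      ∀ᵐ t : ℝ, T j < t → FiniteConvexUnion {x | t ≤ |f j x|}) →
    Entropy μ (fun x => ∑ j, f j x ^ 2) ≤
      D * ∑ j, (1 + Real.log (1 + T j ^ 2 / ∫ x, f j x ^ 2 ∂μ)) *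
        ∫ x, ‖gradient (f j) x‖ ^ 2 ∂μ

theorem MultipeakLogSobolev.vector {μ : Measure (EuclideanSpace ℝ (Fin n))}
    [IsProbabilityMeasure μ] {D : ℝ} (h : MultipeakLogSobolev μ D) : VectorLogSobolev μ D := by
  intro N f T hf
  rw [Finset.mul_sum]
  refine H815.entropy_sum_sq_le f (fun j => (hf j).1) (fun j => (hf j).2.1) _ fun j => ?_
  rw [← mul_assoc]
  exact h (f j) (hf j).1 (hf j).2.1 (T j) (hf j).2.2.1 (hf j).2.2.2

end Vale.Agent.P245.DFP
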